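import Vale.Agent.P198.C2.Mink

/-! Part II-c2: a group acting on the boundary by Lorentz maps acts geometrically. -/

open Set Metric Topology Filter

namespace Vale.Agent.P198.C2

variable {G Z : Type*} [Group G] [MetricSpace Z] [MulAction G Z]

/-- Triples can be moved to separated triples, ordered version. -/
theorem sep_ord (D : Dyn G Z) {x1 x2 x3 : Z} (h0 : 0 < dist x1 x2) (h1 : dist x1 x2 ≤ dist x1 x3)
    (h2 : dist x1 x2 ≤ dist x2 x3) : ∃ g : G,
      1 ≤ 2 * D.C ^ 2 * (2 + D.C / D.q) * dist (g • x1) (g • x2) ∧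
      1 ≤ 2 * D.C ^ 2 * (2 + D.C / D.q) * dist (g • x1) (g • x3) ∧
      1 ≤ 2 * D.C ^ 2 * (2 + D.C / D.q) * dist (g • x2) (g • x3) := by
  have hC := D.one_le_C
  have hq := D.q_pos
  obtain ⟨h, e1, e2, e3⟩ := D.zoom x1 (lt_min h0 one_pos) (min_le_right (dist x1 x2) 1)
  set r := D.q ^ D.len h with hr
  have hr0 : 0 < r := D.qpow_pos _
  have hCr : r ≤ D.C * r := le_mul_of_one_le_left hr0.le hC
  have hs : dist x1 x2 ≤ D.C * r := by
    rcases le_total (dist x1 x2) 1 with h3 | h3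
    · rw [min_eq_left h3] at e1
      exact e1.trans hCr
    · rw [min_eq_right h3] at e1
      exact (D.diam _ _).trans (le_mul_of_one_le_right (by linarith) e1)
  have hrs : D.C * r ≤ D.C / D.q * dist x1 x2 := by
    have h3 : D.q * r ≤ dist x1 x2 := e2.le.trans (min_le_left _ _)
    calc D.C * r = D.C / D.q * (D.q * r) := by field_simp
      _ ≤ _ := mul_le_mul_of_nonneg_left h3 (by positivity)
  have hM : ∀ y, max (dist y (D.pt h)) r ≤ dist x1 y + D.C * r := by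
    intro y
    have h3 := dist_triangle y x1 (D.pt h)
    rw [dist_comm x1 (D.pt h), dist_comm y x1] at h3
    exact max_le (by linarith) (by linarith [dist_nonneg (x := x1) (y := y)])
  have hM0 : ∀ y, 0 ≤ max (dist y (D.pt h)) r := fun y => hr0.le.trans (le_max_right _ _)
  have key : ∀ x y, 0 < dist x y → max (dist x (D.pt h)) r ≤ 2 * D.C * r →
      max (dist y (D.pt h)) r ≤ (2 + D.C / D.q) * dist x y →
      1 ≤ 2 * D.C ^ 2 * (2 + D.C / D.q) * dist (h⁻¹ • x) (h⁻¹ • y) := by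
    intro x y hxy hx hy
    have h3 := D.mob_ge h x y
    rw [← hr] at h3
    have h4 : max (dist x (D.pt h)) r * max (dist y (D.pt h)) r ≤
        2 * D.C * r * ((2 + D.C / D.q) * dist x y) :=
      mul_le_mul hx hy (hM0 y) (by positivity)
    have h5 : D.C * (dist (h⁻¹ • x) (h⁻¹ • y) *
        (max (dist x (D.pt h)) r * max (dist y (D.pt h)) r)) ≤
        D.C * (dist (h⁻¹ • x) (h⁻¹ • y) * (2 * D.C * r * ((2 + D.C / D.q) * dist x y))) :=
      mul_le_mul_of_nonneg_left (mul_le_mul_of_nonneg_left h4 dist_nonneg) (by linarith)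
    refine le_of_mul_le_mul_left ?_ (mul_pos hxy hr0)
    calc dist x y * r * 1 = dist x y * r := mul_one _
      _ ≤ _ := h3.trans h5
      _ = _ := by ring
  have hCq : 0 ≤ D.C / D.q := by positivity
  have hx1 : max (dist x1 (D.pt h)) r ≤ 2 * D.C * r := by
    have := hM x1
    rw [dist_self] at this
    nlinarith
  refine ⟨h⁻¹, key x1 x2 h0 hx1 ?_, key x1 x3 (h0.trans_le h1) hx1 ?_,
    key x2 x3 (h0.trans_le h2) ?_ ?_⟩
  · have := hM x2
    nlinarith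
  · have h3 := hM x3
    have h4 := mul_le_mul_of_nonneg_left h1 hCq
    nlinarith
  · have := hM x2
    linarith
  · have h3 := hM x3
    have h4 := mul_le_mul_of_nonneg_left h2 hCq
    have h5 := dist_triangle x1 x2 x3
    nlinarith

/-- Cocompactness on triples. -/
theorem sep (D : Dyn G Z) : ∃ δ : ℝ, 0 < δ ∧ ∀ x1 x2 x3 : Z, x1 ≠ x2 → x1 ≠ x3 → x2 ≠ x3 →
    ∃ g : G, δ ≤ dist (g • x1) (g • x2) ∧ δ ≤ dist (g • x1) (g • x3) ∧
      δ ≤ dist (g • x2) (g • x3) := by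
  have hC := D.C_pos
  have hq := D.q_pos
  have hK : 0 < 2 * D.C ^ 2 * (2 + D.C / D.q) := by positivity
  refine ⟨1 / (2 * D.C ^ 2 * (2 + D.C / D.q)), by positivity, fun x1 x2 x3 h12 h13 h23 => ?_⟩
  simp only [div_le_iff₀' hK]
  have p12 := dist_pos.2 h12
  have p13 := dist_pos.2 h13
  have p23 := dist_pos.2 h23
  by_cases c1 : dist x1 x2 ≤ dist x1 x3 ∧ dist x1 x2 ≤ dist x2 x3
  · exact sep_ord D p12 c1.1 c1.2
  · by_cases c2 : dist x1 x3 ≤ dist x2 x3
    · have c3 : dist x1 x3 ≤ dist x1 x2 := by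
        by_contra hc
        exact c1 ⟨(not_le.1 hc).le, (not_le.1 hc).le.trans c2⟩
      obtain ⟨g, e1, e2, e3⟩ := sep_ord D (x3 := x2) p13 c3 (by rwa [dist_comm x3 x2])
      exact ⟨g, e2, e1, by rwa [dist_comm]⟩
    · have c3 : dist x2 x3 ≤ dist x1 x2 := by
        by_contra hc
        exact c1 ⟨(not_le.1 hc).le.trans (not_le.1 c2).le, (not_le.1 hc).le⟩
      obtain ⟨g, e1, e2, e3⟩ := sep_ord D (x3 := x1) p23 (by rwa [dist_comm x2 x1])
        (by rw [dist_comm x3 x1]; exact (not_le.1 c2).le)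
      exact ⟨g, by rwa [dist_comm], by rwa [dist_comm], e1⟩

/-- Long elements contract two of three given points. -/
theorem contr (D : Dyn G Z) {x1 x2 x3 : Z} (h12 : x1 ≠ x2) (h13 : x1 ≠ x3) (h23 : x2 ≠ x3)
    {δ : ℝ} (hδ : 0 < δ) : {g : G | δ ≤ dist (g • x1) (g • x2) ∧ δ ≤ dist (g • x1) (g • x3) ∧
      δ ≤ dist (g • x2) (g • x3)}.Finite := by
  set d := min (dist x1 x2) (min (dist x1 x3) (dist x2 x3)) / 2 with hd
  have hd0 : 0 < d := half_pos (lt_min (dist_pos.2 h12) (lt_min (dist_pos.2 h13) (dist_pos.2 h23)))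
  have d12 : 2 * d ≤ dist x1 x2 := by
    have := min_le_left (dist x1 x2) (min (dist x1 x3) (dist x2 x3))
    linarith
  have d13 : 2 * d ≤ dist x1 x3 := by
    have := (min_le_right (dist x1 x2) (min (dist x1 x3) (dist x2 x3))).trans (min_le_left _ _)
    linarith
  have d23 : 2 * d ≤ dist x2 x3 := by
    have := (min_le_right (dist x1 x2) (min (dist x1 x3) (dist x2 x3))).trans (min_le_right _ _)
    linarith
  obtain ⟨n0, hn0⟩ := eventually_atTop.1 (D.ev_small D.C (d * (δ / 2)) (by positivity))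
  refine (D.fin n0).subset fun g hg => ?_
  by_contra hc
  have h1 := hn0 (D.len g) (not_le.1 hc).le
  have key : ∀ x, d ≤ dist x (D.pt g⁻¹) → dist (g • x) (D.pt g) < δ / 2 := by
    intro x hx
    have h2 := D.inv_le g x
    have h3 : dist (g • x) (D.pt g) * d ≤ max (dist (g • x) (D.pt g)) (D.q ^ D.len g) *
        max (dist x (D.pt g⁻¹)) (D.q ^ D.len g) :=
      mul_le_mul (le_max_left _ _) (hx.trans (le_max_left _ _)) hd0.le
        (dist_nonneg.trans (le_max_left _ _))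
    refine lt_of_mul_lt_mul_right (a := d) ?_ hd0.le
    linarith
  have key2 : ∀ x y, d ≤ dist x (D.pt g⁻¹) → d ≤ dist y (D.pt g⁻¹) →
      ¬ δ ≤ dist (g • x) (g • y) := by
    intro x y hx hy
    have h2 := dist_triangle_right (g • x) (g • y) (D.pt g)
    have h3 := key x hx
    have h4 := key y hy
    exact not_le.2 (by linarith)
  have t12 := dist_triangle_right x1 x2 (D.pt g⁻¹)
  have t13 := dist_triangle_right x1 x3 (D.pt g⁻¹)
  have t23 := dist_triangle_right x2 x3 (D.pt g⁻¹)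
  rcases le_or_gt d (dist x1 (D.pt g⁻¹)) with c1 | c1
  · rcases le_or_gt d (dist x2 (D.pt g⁻¹)) with c2 | c2
    · exact key2 x1 x2 c1 c2 hg.1
    · exact key2 x1 x3 c1 (by linarith) hg.2.1
  · exact key2 x2 x3 (by linarith) (by linarith) hg.2.2

theorem Cone.unif [CompactSpace Z] (Γ : Cone Z) {ε : ℝ} (hε : 0 < ε) : ∃ δ : ℝ, 0 < δ ∧
    ∀ x y, ε ≤ -mink (Γ.n x) (Γ.n y) → δ ≤ dist x y := by
  have hc : Continuous fun p : Z × Z => -mink (Γ.n p.1) (Γ.n p.2) :=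
    (cont_mink.comp ((Γ.cont.comp continuous_fst).prodMk (Γ.cont.comp continuous_snd))).neg
  have hK : IsCompact {p : Z × Z | ε ≤ -mink (Γ.n p.1) (Γ.n p.2)} :=
    (isClosed_le continuous_const hc).isCompact
  obtain ⟨δ, hδ, h⟩ := hK.exists_forall_le' (f := fun p : Z × Z => dist p.1 p.2) (a := 0)
    continuous_dist.continuousOn fun p hp => dist_pos.2 fun h0 => by
      have h1 : ε ≤ -mink (Γ.n p.1) (Γ.n p.2) := hp
      rw [h0, Γ.null] at h1
      linarith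
  exact ⟨δ, hδ, fun x y hxy => h (x, y) hxy⟩

theorem Cone.unif' [CompactSpace Z] (Γ : Cone Z) {δ : ℝ} (hδ : 0 < δ) : ∃ ε : ℝ, 0 < ε ∧
    ∀ x y, δ ≤ dist x y → ε ≤ -mink (Γ.n x) (Γ.n y) := by
  have hc : Continuous fun p : Z × Z => -mink (Γ.n p.1) (Γ.n p.2) :=
    (cont_mink.comp ((Γ.cont.comp continuous_fst).prodMk (Γ.cont.comp continuous_snd))).neg
  have hK : IsCompact {p : Z × Z | δ ≤ dist p.1 p.2} :=
    (isClosed_le continuous_const continuous_dist).isCompact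
  obtain ⟨ε, hε, h⟩ := hK.exists_forall_le' (a := 0) hc.continuousOn fun p hp =>
    neg_pos.2 (Γ.neg _ _ (dist_pos.1 (hδ.trans_le hp)))
  exact ⟨ε, hε, fun x y hxy => h (x, y) hxy⟩

/-- A Lorentz map moving a bounded point to a bounded point does not contract much. -/
theorem Cone.Rep.lip {Γ : Cone Z} {f : Z → Z} {L : V →ₗ[ℝ] V} (h : Γ.Rep f L) (y : H3) {R : ℝ}
    (h1 : y.1 0 ≤ R) (h2 : L y.1 0 ≤ R) (x x' : Z) :
    -mink (Γ.n x) (Γ.n x') ≤ (4 * R ^ 2) ^ 2 * -mink (Γ.n (f x)) (Γ.n (f x')) := by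
  have hm := h.mem y
  have hy := y.2.2
  have key : ∀ x a, 0 < a → L (Γ.n x) = a • Γ.n (f x) → a ≤ 4 * R ^ 2 := by
    intro x a ha e
    have h3 := h.1 y.1 (Γ.n x)
    rw [e, mink_smul_right] at h3
    have h4 := (pair_bd y.2.1 y.2.2 (Γ.n0 x) (Γ.null x)).2
    have h5 := (pair_bd hm.1 hm.2 (Γ.n0 (f x)) (Γ.null _)).1
    have h6 := mul_le_mul_of_nonneg_left h5 ha.le
    have h7 : a * (2 * L y.1 0 * -mink (L y.1) (Γ.n (f x))) = 2 * L y.1 0 * -mink y.1 (Γ.n x) := by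
      rw [← h3]
      ring
    have h8 : 2 * L y.1 0 * -mink y.1 (Γ.n x) ≤ 2 * L y.1 0 * (2 * y.1 0) :=
      mul_le_mul_of_nonneg_left h4 (by linarith [hm.2])
    have h9 : L y.1 0 * y.1 0 ≤ R * R := mul_le_mul h2 h1 hy.le (hy.le.trans h1)
    nlinarith
  obtain ⟨a, ha, e⟩ := h.2 x
  obtain ⟨a', ha', e'⟩ := h.2 x'
  have h3 := h.1 (Γ.n x) (Γ.n x')
  rw [e, e', mink_smul] at h3
  have h4 : 0 ≤ -mink (Γ.n (f x)) (Γ.n (f x')) := by
    by_cases hc : f x = f x'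
    · rw [hc, Γ.null, neg_zero]
    · exact (neg_pos.2 (Γ.neg _ _ hc)).le
  have h5 : a * a' ≤ (4 * R ^ 2) ^ 2 := by
    rw [sq (4 * R ^ 2)]
    exact mul_le_mul (key x a ha e) (key x' a' ha' e') ha'.le (by positivity)
  have h6 := mul_le_mul_of_nonneg_right h5 h4
  rw [← h3]
  linarith

theorem bd3 {l1 l2 l3 s12 s13 s23 ε p : ℝ} (hε : 0 < ε) (h1 : 0 < l1) (h2 : 0 < l2) (h3 : 0 < l3)
    (a12 : ε ≤ s12) (a13 : ε ≤ s13) (b23 : s23 ≤ 2) (e12 : l1 * l2 * s12 ≤ 2)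
    (e13 : l1 * l3 * s13 = 1) (e23 : l2 * l3 * s23 = 1) (hp : p = 2 / ε) : l1 ≤ p := by
  have c12 : l1 * l2 * ε ≤ 2 := (mul_le_mul_of_nonneg_left a12 (mul_pos h1 h2).le).trans e12
  have c13 : l1 * l3 * ε ≤ 1 := (mul_le_mul_of_nonneg_left a13 (mul_pos h1 h3).le).trans e13.le
  have c23 : 1 ≤ l2 * l3 * 2 := e23 ▸ mul_le_mul_of_nonneg_left b23 (mul_pos h2 h3).le
  have c1 : (l1 * l2 * ε) * (l1 * l3 * ε) ≤ 2 * 1 :=
    mul_le_mul c12 c13 (by positivity) (by norm_num)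
  have c2 : (l1 * ε) ^ 2 * 1 ≤ (l1 * ε) ^ 2 * (l2 * l3 * 2) :=
    mul_le_mul_of_nonneg_left c23 (sq_nonneg _)
  have c3 : (l1 * ε) ^ 2 ≤ 2 ^ 2 := by nlinarith
  rw [hp, le_div_iff₀ hε]
  exact le_of_sq_le_sq c3 (by norm_num)

theorem geom_of_cone [CompactSpace Z] (D : Dyn G Z) (Γ : Cone Z)
    (hR : ∀ g : G, ∃ L, Γ.Rep (fun x => g • x) L) : Geom G := by
  choose L hL using hR
  have h1 : L 1 = LinearMap.id := (hL 1).uniq (by simpa only [one_smul] using Γ.rep_id)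
  have hmul : ∀ g g', L (g * g') = L g ∘ₗ L g' := fun g g' =>
    (hL (g * g')).uniq (by simpa only [mul_smul] using (hL g).comp (hL g'))
  let A : G →* Function.End H3 :=
    { toFun := fun g y => ⟨L g y.1, (hL g).mem y⟩
      map_one' := by
        funext y
        apply Subtype.ext
        show L 1 y.1 = y.1
        rw [h1, LinearMap.id_apply]
      map_mul' := fun g g' => by
        funext y
        apply Subtype.ext
        show L (g * g') y.1 = L g (L g' y.1)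
        rw [hmul, LinearMap.comp_apply] }
  have hA : ∀ g y, ((A.toHomPerm g y : H3) : V) = L g y.1 := fun g y => rfl
  have prop : ∀ K : Set H3, IsCompact K → {g | (A.toHomPerm g '' K ∩ K).Nonempty}.Finite := by
    intro K hK
    obtain ⟨R, hR⟩ := (hK.image
      ((continuous_apply 0).comp continuous_subtype_val : Continuous fun y : H3 => y.1 0)).bddAbove
    have hR' : ∀ y ∈ K, y.1 0 ≤ R := fun y hy => hR ⟨y, hy, rfl⟩
    obtain ⟨x1, x2, x3, h12, h13, h23⟩ := Γ.three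
    set m := min (-mink (Γ.n x1) (Γ.n x2)) (min (-mink (Γ.n x1) (Γ.n x3))
      (-mink (Γ.n x2) (Γ.n x3))) with hm
    have hm0 : 0 < m := lt_min (neg_pos.2 (Γ.neg _ _ h12))
      (lt_min (neg_pos.2 (Γ.neg _ _ h13)) (neg_pos.2 (Γ.neg _ _ h23)))
    obtain ⟨δ, hδ, hu⟩ := Γ.unif (ε := m / ((4 * R ^ 2) ^ 2 + 1)) (by positivity)
    refine (contr D h12 h13 h23 hδ).subset ?_
    rintro g ⟨_, ⟨y, hy, rfl⟩, hy'⟩
    have key : ∀ x x', m ≤ -mink (Γ.n x) (Γ.n x') → δ ≤ dist (g • x) (g • x') := by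
      intro x x' hx
      have h2 := (hL g).lip y (hR' y hy) (hR' _ hy') x x'
      refine hu _ _ ?_
      rw [div_le_iff₀ (by positivity)]
      have h3 : 0 ≤ -mink (Γ.n (g • x)) (Γ.n (g • x')) := by
        by_cases hc : g • x = g • x'
        · rw [hc, Γ.null, neg_zero]
        · exact (neg_pos.2 (Γ.neg _ _ hc)).le
      nlinarith
    exact ⟨key _ _ (min_le_left _ _), key _ _ ((min_le_right _ _).trans (min_le_left _ _)),
      key _ _ ((min_le_right _ _).trans (min_le_right _ _))⟩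
  refine ⟨A.toHomPerm, fun g x y => ?_, prop, ?_, ?_⟩
  · unfold hdist
    rw [hA, hA, (hL g).1]
  · obtain ⟨δ, hδ, hs⟩ := sep D
    obtain ⟨ε, hε, hu⟩ := Γ.unif' hδ
    refine ⟨_, cpt_H3 (2 / ε), fun y => ?_⟩
    obtain ⟨x1, x2, x3, a1, a2, a3, p1, p2, p3, hy, e12, e13, e23⟩ := Γ.tri y
    have hne : ∀ x x' (a p : ℝ), p ≠ 0 → a * mink (Γ.n x) (Γ.n x') = p → x ≠ x' := by
      rintro x x' a p hp e rfl
      rw [Γ.null, mul_zero] at e
      exact hp e.symm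
    obtain ⟨g, s12, s13, s23⟩ := hs x1 x2 x3 (hne _ _ _ _ (by norm_num) e12)
      (hne _ _ _ _ (by norm_num) e13) (hne _ _ _ _ (by norm_num) e23)
    refine ⟨g⁻¹, A.toHomPerm g y, ?_, by
      rw [← Equiv.Perm.mul_apply, ← map_mul, inv_mul_cancel, map_one, Equiv.Perm.one_apply]⟩
    show L g y.1 0 ≤ 2 / ε
    obtain ⟨b1, q1, f1⟩ := (hL g).2 x1
    obtain ⟨b2, q2, f2⟩ := (hL g).2 x2
    obtain ⟨b3, q3, f3⟩ := (hL g).2 x3
    have m12 := (hL g).1 (Γ.n x1) (Γ.n x2)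
    have m13 := (hL g).1 (Γ.n x1) (Γ.n x3)
    have m23 := (hL g).1 (Γ.n x2) (Γ.n x3)
    rw [f1, f2, mink_smul] at m12
    rw [f1, f3, mink_smul] at m13
    rw [f2, f3, mink_smul] at m23
    have nb : ∀ x x', -mink (Γ.n x) (Γ.n x') ≤ 2 := fun x x' =>
      null_bd (Γ.n0 _) (Γ.null _) (Γ.n0 _) (Γ.null _)
    have g12 : a1 * b1 * (a2 * b2) * -mink (Γ.n (g • x1)) (Γ.n (g • x2)) = 2 := by
      linear_combination (-(a1 * a2)) * m12 - e12
    have g13 : a1 * b1 * (a3 * b3) * -mink (Γ.n (g • x1)) (Γ.n (g • x3)) = 1 := by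
      linear_combination (-(a1 * a3)) * m13 - e13
    have g23 : a2 * b2 * (a3 * b3) * -mink (Γ.n (g • x2)) (Γ.n (g • x3)) = 1 := by
      linear_combination (-(a2 * a3)) * m23 - e23
    have r1 : a1 * b1 ≤ 2 / ε := bd3 hε (mul_pos p1 q1) (mul_pos p2 q2) (mul_pos p3 q3)
      (hu _ _ s12) (hu _ _ s13) (nb _ _) g12.le g13 g23 rfl
    have r2 : a2 * b2 ≤ 2 / ε := bd3 hε (mul_pos p2 q2) (mul_pos p1 q1) (mul_pos p3 q3)
      (hu _ _ s12) (hu _ _ s23) (nb _ _) (by linarith) g23 g13 rfl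
    rw [hy, map_smul, map_add, map_smul, map_smul, f1, f2]
    simp only [Pi.smul_apply, Pi.add_apply, smul_eq_mul, Γ.n0]
    linarith
  · refine (prop {e0} isCompact_singleton).subset fun g hg => ⟨e0, ⟨e0, rfl, ?_⟩, rfl⟩
    have h2 : A.toHomPerm g = 1 := hg
    rw [h2, Equiv.Perm.one_apply]

end Vale.Agent.P198.C2
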