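import Vale.Agent.P198.C2.Mink

/-! Part II-c2: holomorphic homeomorphisms of the sphere preserve the light cone structure. -/

open Set Metric Topology Filter

namespace Vale.Agent.P198.C2

theorem sub_cocompact (a : ℂ) : Tendsto (fun z : ℂ => z - a) (cocompact ℂ) (cocompact ℂ) :=
  (Homeomorph.subRight a).isClosedEmbedding.tendsto_cocompact

theorem inv_cocompact : Tendsto (fun z : ℂ => z⁻¹) (cocompact ℂ) (𝓝[≠] 0) := by
  rw [← Metric.cobounded_eq_cocompact]
  exact tendsto_inv₀_cobounded'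

theorem inv_nhds : Tendsto (fun z : ℂ => z⁻¹) (𝓝[≠] 0) (cocompact ℂ) := by
  rw [← Metric.cobounded_eq_cocompact]
  exact tendsto_inv₀_nhdsNE_zero

/-- An injective proper entire function is a similarity. -/
theorem affine {Φ : ℂ → ℂ} (hd : Differentiable ℂ Φ) (hi : Function.Injective Φ)
    (ht : Tendsto Φ (cocompact ℂ) (cocompact ℂ)) :
    ∃ α : ℝ, 0 < α ∧ ∀ z z', ‖Φ z - Φ z'‖ = α * ‖z - z'‖ := by
  have h0 : ∃ z0, deriv Φ z0 ≠ 0 := by
    by_contra hc
    push Not at hc
    exact zero_ne_one (hi (is_const_of_deriv_eq_zero hd hc 0 1))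
  obtain ⟨z0, hz0⟩ := h0
  have hG : Differentiable ℂ (dslope Φ z0) := differentiableOn_univ.1
    ((Complex.differentiableOn_dslope univ_mem).2 hd.differentiableOn)
  have hG0 : ∀ z, dslope Φ z0 z ≠ 0 := by
    intro z
    by_cases hz : z = z0
    · rw [hz, dslope_same]
      exact hz0
    · rw [dslope_of_ne _ hz, slope_def_field]
      exact div_ne_zero (sub_ne_zero.2 (hi.ne hz)) (sub_ne_zero.2 hz)
  let U : ℂ → ℂ := fun z => (dslope Φ z0 z)⁻¹
  have hU : Differentiable ℂ U := hG.inv hG0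
  have hW : Differentiable ℂ (dslope U z0) := differentiableOn_univ.1
    ((Complex.differentiableOn_dslope univ_mem).2 hU.differentiableOn)
  have hlim : Tendsto (dslope U z0) (cocompact ℂ) (𝓝 0) := by
    have t1 : Tendsto (fun z => (Φ z - Φ z0)⁻¹) (cocompact ℂ) (𝓝 0) :=
      (inv_cocompact.mono_right nhdsWithin_le_nhds).comp ((sub_cocompact _).comp ht)
    have t2 : Tendsto (fun z => U z0 * (z - z0)⁻¹) (cocompact ℂ) (𝓝 (U z0 * 0)) :=
      ((inv_cocompact.mono_right nhdsWithin_le_nhds).comp (sub_cocompact z0)).const_mul _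
    have t3 := t1.sub t2
    rw [mul_zero, sub_zero] at t3
    refine t3.congr' ?_
    filter_upwards [isCompact_singleton.compl_mem_cocompact (s := {z0})] with z hz
    have hz' : z ≠ z0 := hz
    have e1 : z - z0 ≠ 0 := sub_ne_zero.2 hz'
    have e2 : Φ z - Φ z0 ≠ 0 := sub_ne_zero.2 (hi.ne hz')
    rw [dslope_of_ne _ hz', slope_def_field]
    have e3 : U z = (z - z0) / (Φ z - Φ z0) := by
      simp only [U]
      rw [dslope_of_ne _ hz', slope_def_field, inv_div]
    rw [e3]
    field_simp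
  have hc : ∀ z, dslope Φ z0 z = dslope Φ z0 z0 := by
    intro z
    have e1 := sub_smul_dslope U z0 z
    rw [hW.apply_eq_of_tendsto_cocompact z hlim, smul_zero] at e1
    exact inv_injective (sub_eq_zero.1 e1.symm)
  refine ⟨‖dslope Φ z0 z0‖, norm_pos_iff.2 (hG0 z0), fun z z' => ?_⟩
  have e1 := sub_smul_dslope Φ z0 z
  have e2 := sub_smul_dslope Φ z0 z'
  rw [hc, smul_eq_mul] at e1 e2
  rw [← norm_mul]
  have e3 : Φ z - Φ z' = dslope Φ z0 z0 * (z - z') := by linear_combination e2 - e1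
  rw [e3]

/-- The null vector of a finite point. -/
noncomputable def Nw (w : ℂ) : V := ![1 + ‖w‖ ^ 2, 2 * w.re, 2 * w.im, ‖w‖ ^ 2 - 1]

/-- The null vector of the point at infinity. -/
def Nb : V := ![1, 0, 0, 1]

theorem mink_ww (w w' : ℂ) : mink (Nw w) (Nw w') = -2 * ‖w - w'‖ ^ 2 := by
  simp only [mink, Nw, Matrix.cons_val_zero, Matrix.cons_val_one, Matrix.cons_val,
    Complex.sq_norm, Complex.normSq_apply, Complex.sub_re, Complex.sub_im]
  ring

theorem mink_bw (w : ℂ) : mink Nb (Nw w) = -2 := by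
  simp only [mink, Nw, Nb, Matrix.cons_val_zero, Matrix.cons_val_one, Matrix.cons_val]
  ring

theorem mink_bb : mink Nb Nb = 0 := by
  simp [mink, Nb]

variable {G Z : Type*} [Group G] [MetricSpace Z] [MulAction G Z]

open Classical in
/-- The null vector of a boundary point. -/
noncomputable def NN (c : GCh Z) (x : Z) : V := if x = c.b then Nb else Nw (c.h x)

theorem NN_b (c : GCh Z) : NN c c.b = Nb := if_pos rfl

theorem NN_ne (c : GCh Z) {x : Z} (hx : x ≠ c.b) : NN c x = Nw (c.h x) := if_neg hx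

theorem NN_k (c : GCh Z) (w : ℂ) : NN c (c.k w) = Nw w := by
  rw [NN_ne c (c.k_ne w), c.hk]

theorem NN_null (c : GCh Z) (x : Z) : mink (NN c x) (NN c x) = 0 := by
  by_cases hx : x = c.b
  · rw [hx, NN_b, mink_bb]
  · rw [NN_ne c hx, mink_ww]
    simp

theorem k_inj (c : GCh Z) : Function.Injective c.k := fun w w' h => by
  rw [← c.hk w, h, c.hk]

theorem h_inj (c : GCh Z) {x y : Z} (hx : x ≠ c.b) (hy : y ≠ c.b) (h : c.h x = c.h y) : x = y := by
  rw [← c.kh x hx, h, c.kh y hy]

/-- The conformality relation. -/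
def Mob (c : GCh Z) (g : G) : Prop := ∃ μ : Z → ℝ, (∀ x, 0 < μ x) ∧
  ∀ x y, μ x * μ y * mink (NN c (g • x)) (NN c (g • y)) = mink (NN c x) (NN c y)

theorem mob_of (c : GCh Z) (g : G) (t : Z → ℂ) (ν : Z → ℝ) {α : ℝ} (hα : 0 < α)
    (hν : ∀ x, g • x ≠ c.b → 0 < ν x)
    (h1 : ∀ x y, g • x ≠ c.b → g • y ≠ c.b →
      mink (NN c x) (NN c y) = -2 * (ν x * ν y) * ‖t x - t y‖ ^ 2)
    (h2 : ∀ x y, g • x = c.b → g • y ≠ c.b → mink (NN c x) (NN c y) = -2 * ν y)
    (h3 : ∀ x y, g • x ≠ c.b → g • y ≠ c.b → ‖c.h (g • x) - c.h (g • y)‖ = α * ‖t x - t y‖) :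
    Mob c g := by
  classical
  refine ⟨fun x => if g • x = c.b then α else ν x / α, fun x => ?_, fun x y => ?_⟩
  · by_cases hx : g • x = c.b
    · simp only [if_pos hx, hα]
    · simp only [if_neg hx, div_pos (hν x hx) hα]
  · by_cases hx : g • x = c.b
    · by_cases hy : g • y = c.b
      · have e : x = y := MulAction.injective g (hx.trans hy.symm)
        rw [e, NN_null, NN_null, mul_zero]
      · simp only [if_pos hx, if_neg hy]
        rw [h2 x y hx hy, hx, NN_b, NN_ne c hy, mink_bw]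
        field_simp
    · by_cases hy : g • y = c.b
      · simp only [if_pos hy, if_neg hx]
        rw [mink_comm (NN c x), h2 y x hy hx, hy, NN_b, NN_ne c hx, mink_comm, mink_bw]
        field_simp
      · simp only [if_neg hy, if_neg hx]
        rw [h1 x y hx hy, NN_ne c hx, NN_ne c hy, mink_ww, h3 x y hx hy]
        field_simp

theorem sim_of (c : GCh Z) (g : G) (hg : Continuous fun x : Z => g • x) (σ : ℂ ≃ₗᵢ[ℝ] ℂ)
    (κ : ℂ → Z) (hκ : Function.Injective κ) (hb : ∀ z, g • κ z ≠ c.b)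
    (hd : Differentiable ℂ fun z => σ (c.h (g • κ z)))
    (ht : Tendsto κ (cocompact ℂ) (𝓝 (g⁻¹ • c.b))) :
    ∃ α : ℝ, 0 < α ∧ ∀ z z', ‖c.h (g • κ z) - c.h (g • κ z')‖ = α * ‖z - z'‖ := by
  have h1 : Tendsto (fun z => g • κ z) (cocompact ℂ) (𝓝[≠] c.b) := by
    refine tendsto_nhdsWithin_iff.2 ⟨?_, Eventually.of_forall hb⟩
    have := (hg.tendsto _).comp ht
    rwa [smul_inv_smul] at this
  obtain ⟨α, hα, h⟩ := affine hd (fun z z' e => hκ (MulAction.injective g
    (h_inj c (hb z) (hb z') (σ.injective e))))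
    (σ.toHomeomorph.isClosedEmbedding.tendsto_cocompact.comp (c.h_inf.comp h1))
  refine ⟨α, hα, fun z z' => ?_⟩
  rw [← h, ← map_sub, σ.norm_map]

theorem mob (c : GCh Z) (g : G) (hg : Continuous fun x : Z => g • x) (σ : ℂ ≃ₗᵢ[ℝ] ℂ)
    (hd : DifferentiableOn ℂ (fun w => σ (c.h (g • c.k w))) {w | g • c.k w ≠ c.b}) : Mob c g := by
  classical
  by_cases hb : g • c.b = c.b
  · have e1 : ∀ x, g • x ≠ c.b → x ≠ c.b := fun x hx h => hx (h ▸ hb)
    have e2 : ∀ x, g • x = c.b → x = c.b := fun x hx => MulAction.injective g (hx.trans hb.symm)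
    have e3 : ∀ z, g • c.k z ≠ c.b := fun z h => c.k_ne z (e2 _ h)
    obtain ⟨α, hα, h⟩ := sim_of c g hg σ c.k (k_inj c) e3
      (differentiableOn_univ.1 (hd.mono fun z _ => e3 z))
      (by rw [inv_smul_eq_iff.2 hb.symm]; exact c.k_inf)
    refine mob_of c g c.h (fun _ => 1) hα (fun _ _ => one_pos) (fun x y hx hy => ?_)
      (fun x y hx hy => ?_) fun x y hx hy => ?_
    · rw [NN_ne c (e1 x hx), NN_ne c (e1 y hy), mink_ww]
      ring
    · rw [e2 x hx, NN_b, NN_ne c (e1 y hy), mink_bw, mul_one]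
    · rw [← h, c.kh x (e1 x hx), c.kh y (e1 y hy)]
  · have hq : g⁻¹ • c.b ≠ c.b := fun h => hb (inv_smul_eq_iff.1 h).symm
    set p := c.h (g⁻¹ • c.b) with hp
    have hkp : c.k p = g⁻¹ • c.b := c.kh _ hq
    have e1 : ∀ w, g • c.k w = c.b ↔ w = p := fun w => by
      rw [← (k_inj c).eq_iff, hkp, eq_inv_smul_iff]
    let κ : ℂ → Z := fun z => if z = 0 then c.b else c.k (p + z⁻¹)
    have k0 : κ 0 = c.b := if_pos rfl
    have k1 : ∀ z, z ≠ 0 → κ z = c.k (p + z⁻¹) := fun z hz => if_neg hz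
    have e2 : ∀ z, z ≠ 0 → g • c.k (p + z⁻¹) ≠ c.b := fun z hz h =>
      inv_ne_zero hz (add_eq_left.1 ((e1 _).1 h))
    have e3 : ∀ z, g • κ z ≠ c.b := by
      intro z
      by_cases hz : z = 0
      · rw [hz, k0]
        exact hb
      · rw [k1 z hz]
        exact e2 z hz
    have e4 : Function.Injective κ := by
      intro z z' h
      by_cases hz : z = 0
      · by_contra hc
        rw [hz, k0, k1 z' fun h0 => hc (hz.trans h0.symm)] at h
        exact c.k_ne _ h.symm
      · by_cases hz' : z' = 0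
        · rw [hz', k0, k1 z hz] at h
          exact absurd h (c.k_ne _)
        · rw [k1 z hz, k1 z' hz'] at h
          exact inv_injective (add_left_cancel (k_inj c h))
    have e5 : ContinuousAt κ 0 := by
      rw [continuousAt_iff_punctured_nhds, k0]
      have t1 : Tendsto (fun z : ℂ => c.k (p + z⁻¹)) (𝓝[≠] 0) (𝓝 c.b) :=
        c.k_inf.comp ((Homeomorph.addLeft p).isClosedEmbedding.tendsto_cocompact.comp inv_nhds)
      refine t1.congr' ?_
      filter_upwards [self_mem_nhdsWithin] with z hz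
      exact (k1 z hz).symm
    have e6 : Differentiable ℂ fun z => σ (c.h (g • κ z)) := by
      rw [← differentiableOn_univ,
        ← Complex.differentiableOn_compl_singleton_and_continuousAt_iff (c := 0) univ_mem]
      constructor
      · have d1 : DifferentiableOn ℂ (fun z : ℂ => p + z⁻¹) (univ \ {0}) :=
          (differentiableOn_const p).add (differentiableOn_inv.mono fun z hz => hz.2)
        refine (hd.comp d1 fun z hz => e2 z hz.2).congr fun z hz => ?_
        simp only [Function.comp, k1 z hz.2]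
      · have c1 : ContinuousAt c.h (g • κ 0) :=
          c.h_cont.continuousAt (isOpen_compl_singleton.mem_nhds (e3 0))
        exact σ.continuous.continuousAt.comp
          (ContinuousAt.comp (f := fun z => g • κ z) c1 (hg.continuousAt.comp e5))
    have e7 : Tendsto κ (cocompact ℂ) (𝓝 (g⁻¹ • c.b)) := by
      have t1 : Tendsto (fun z : ℂ => p + z⁻¹) (cocompact ℂ) (𝓝 (p + 0)) :=
        (inv_cocompact.mono_right nhdsWithin_le_nhds).const_add p
      rw [add_zero] at t1
      rw [← hkp]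
      refine ((c.k_cont.tendsto p).comp t1).congr' ?_
      filter_upwards [isCompact_singleton.compl_mem_cocompact (s := {(0 : ℂ)})] with z hz
      exact (k1 z hz).symm
    obtain ⟨α, hα, h⟩ := sim_of c g hg σ κ e4 e3 e6 e7
    have e8 : ∀ x, x ≠ c.b → g • x ≠ c.b → c.h x - p ≠ 0 := by
      intro x hx hx' h0
      apply hx'
      rw [← c.kh x hx]
      exact (e1 _).2 (sub_eq_zero.1 h0)
    let t : Z → ℂ := fun x => if x = c.b then 0 else (c.h x - p)⁻¹
    let ν : Z → ℝ := fun x => if x = c.b then 1 else ‖c.h x - p‖ ^ 2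
    have t0 : t c.b = 0 := if_pos rfl
    have t1 : ∀ x, x ≠ c.b → t x = (c.h x - p)⁻¹ := fun x hx => if_neg hx
    have n0 : ν c.b = 1 := if_pos rfl
    have n1 : ∀ x, x ≠ c.b → ν x = ‖c.h x - p‖ ^ 2 := fun x hx => if_neg hx
    have e9 : ∀ x, g • x ≠ c.b → κ (t x) = x := by
      intro x hx'
      by_cases hx : x = c.b
      · rw [hx, t0, k0]
      · rw [t1 x hx, k1 _ (inv_ne_zero (e8 x hx hx')), inv_inv, add_sub_cancel, c.kh x hx]
    refine mob_of c g t ν hα (fun x hx' => ?_) (fun x y hx' hy' => ?_)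
      (fun x y hx' hy' => ?_) fun x y hx hy => ?_
    · by_cases hx : x = c.b
      · rw [hx, n0]
        exact one_pos
      · rw [n1 x hx]
        exact pow_pos (norm_pos_iff.2 (e8 x hx hx')) 2
    · by_cases hx : x = c.b
      · by_cases hy : y = c.b
        · rw [hx, hy, NN_null]
          simp
        · have := norm_ne_zero_iff.2 (e8 y hy hy')
          rw [hx, NN_b, NN_ne c hy, mink_bw, t0, n0, t1 y hy, n1 y hy, zero_sub, norm_neg, norm_inv]
          field_simp
      · by_cases hy : y = c.b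
        · have := norm_ne_zero_iff.2 (e8 x hx hx')
          rw [hy, NN_b, NN_ne c hx, mink_comm, mink_bw, t0, n0, t1 x hx, n1 x hx, sub_zero, norm_inv]
          field_simp
        · have a1 := e8 x hx hx'
          have a2 := e8 y hy hy'
          have a3 := norm_ne_zero_iff.2 a1
          have a4 := norm_ne_zero_iff.2 a2
          have a5 : (c.h x - p)⁻¹ - (c.h y - p)⁻¹ =
              -(c.h x - c.h y) / ((c.h x - p) * (c.h y - p)) := by
            field_simp
            ring
          rw [NN_ne c hx, NN_ne c hy, mink_ww, t1 x hx, t1 y hy, n1 x hx, n1 y hy, a5, norm_div,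
            norm_neg, norm_mul]
          field_simp
    · have hx : x = c.k p := by rw [hkp, eq_inv_smul_iff, hx']
      by_cases hy : y = c.b
      · rw [hx, hy, NN_k, NN_b, mink_comm, mink_bw, n0, mul_one]
      · rw [hx, NN_k, NN_ne c hy, mink_ww, n1 y hy, norm_sub_rev]
    · rw [← h, e9 x hx, e9 y hy]

end Vale.Agent.P198.C2
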