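import Vale.Agent.P198.C2.Abs
import Vale.Agent.P198.C2.Hol

/-! Part II-c2: from a conformal action on the boundary to a geometric action on `H3`. -/

open Set Metric Topology Filter

namespace Vale.Agent.P198

namespace C2

variable {G Z : Type*} [Group G] [MetricSpace Z] [MulAction G Z]

theorem NN_pos (c : GCh Z) (x : Z) : 0 < NN c x 0 := by
  by_cases hx : x = c.b
  · rw [hx, NN_b]
    simp [Nb]
  · rw [NN_ne c hx]
    simp only [Nw, Matrix.cons_val_zero]
    positivity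

theorem NN_neg (c : GCh Z) {x y : Z} (h : x ≠ y) : mink (NN c x) (NN c y) < 0 := by
  by_cases hx : x = c.b
  · rw [hx, NN_b, NN_ne c fun hy => h (hx.trans hy.symm), mink_bw]
    norm_num
  · by_cases hy : y = c.b
    · rw [hy, NN_b, NN_ne c hx, mink_comm, mink_bw]
      norm_num
    · rw [NN_ne c hx, NN_ne c hy, mink_ww]
      have h1 : c.h x - c.h y ≠ 0 := sub_ne_zero.2 fun e => h (h_inj c hx hy e)
      have h2 := pow_pos (norm_pos_iff.2 h1) 2
      linarith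

/-- Coordinates in the basis of four null vectors. -/
noncomputable def co : V →ₗ[ℝ] V where
  toFun y := ![(y 0 - y 1 - y 2 + y 3) / 2, (y 0 - y 1 - y 2 - y 3) / 2, y 1 / 2, y 2 / 2]
  map_add' x y := by
    funext i
    fin_cases i <;> simp <;> ring
  map_smul' a x := by
    funext i
    fin_cases i <;> simp <;> ring

theorem span_NN (c : GCh Z) (y : V) :
    ∑ j, co y j • NN c (![c.b, c.k 0, c.k 1, c.k Complex.I] j) = y := by
  rw [Fin.sum_univ_four]
  simp only [Matrix.cons_val_zero, Matrix.cons_val_one, Matrix.cons_val, NN_b, NN_k]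
  funext i
  fin_cases i <;> simp [co, Nb, Nw] <;> ring

/-- Normalised null vector. -/
noncomputable def nn (c : GCh Z) (x : Z) : V := (NN c x 0)⁻¹ • NN c x

theorem smul_nn (c : GCh Z) (x : Z) : NN c x 0 • nn c x = NN c x := by
  rw [nn, smul_smul, mul_inv_cancel₀ (NN_pos c x).ne', one_smul]

theorem lim_Nw : Tendsto (fun w : ℂ => (Nw w 0)⁻¹ • Nw w) (cocompact ℂ) (𝓝 Nb) := by
  have t0 : Tendsto (fun w : ℂ => ‖w‖) (cocompact ℂ) atTop := tendsto_norm_cocompact_atTop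
  have t1 : Tendsto (fun w : ℂ => (1 + ‖w‖ ^ 2)⁻¹) (cocompact ℂ) (𝓝 0) :=
    tendsto_inv_atTop_zero.comp (tendsto_atTop_add_const_left _ _
      ((tendsto_pow_atTop two_ne_zero).comp t0))
  have hp : ∀ w : ℂ, 0 < 1 + ‖w‖ ^ 2 := fun w => by positivity
  have t2 : ∀ u : ℂ → ℝ, (∀ w, |u w| ≤ ‖w‖) →
      Tendsto (fun w : ℂ => (1 + ‖w‖ ^ 2)⁻¹ * (2 * u w)) (cocompact ℂ) (𝓝 0) := by
    intro u hu
    have t3 : Tendsto (fun w : ℂ => 2 * ‖w‖⁻¹) (cocompact ℂ) (𝓝 (2 * 0)) :=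
      (tendsto_inv_atTop_zero.comp t0).const_mul 2
    rw [mul_zero] at t3
    refine squeeze_zero_norm' ?_ t3
    filter_upwards [t0.eventually_gt_atTop 0] with w hw
    rw [Real.norm_eq_abs, abs_mul, abs_mul, abs_of_pos (inv_pos.2 (hp w)), abs_two,
      inv_mul_le_iff₀ (hp w), ← mul_assoc, ← div_eq_mul_inv, le_div_iff₀ hw]
    nlinarith [mul_le_mul_of_nonneg_right (hu w) hw.le]
  rw [tendsto_pi_nhds]
  intro i
  fin_cases i
  · refine tendsto_const_nhds.congr fun w => ?_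
    show (1 : ℝ) = (1 + ‖w‖ ^ 2)⁻¹ * (1 + ‖w‖ ^ 2)
    rw [inv_mul_cancel₀ (hp w).ne']
  · exact t2 _ Complex.abs_re_le_norm
  · exact t2 _ Complex.abs_im_le_norm
  · have t3 : Tendsto (fun w : ℂ => 1 - 2 * (1 + ‖w‖ ^ 2)⁻¹) (cocompact ℂ) (𝓝 (1 - 2 * 0)) :=
      (t1.const_mul 2).const_sub 1
    rw [mul_zero, sub_zero] at t3
    refine t3.congr fun w => ?_
    show _ = (1 + ‖w‖ ^ 2)⁻¹ * (‖w‖ ^ 2 - 1)
    have := (hp w).ne'
    field_simp
    ring

theorem cont_Nw : Continuous Nw := by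
  refine continuous_pi fun i => ?_
  fin_cases i
  · show Continuous fun w : ℂ => 1 + ‖w‖ ^ 2
    fun_prop
  · show Continuous fun w : ℂ => 2 * w.re
    fun_prop
  · show Continuous fun w : ℂ => 2 * w.im
    fun_prop
  · show Continuous fun w : ℂ => ‖w‖ ^ 2 - 1
    fun_prop

theorem cont_nn (c : GCh Z) : Continuous (nn c) := by
  have c1 : Continuous fun w : ℂ => (Nw w 0)⁻¹ • Nw w := by
    refine (((continuous_apply 0).comp cont_Nw).inv₀ fun w => ?_).smul cont_Nw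
    show 1 + ‖w‖ ^ 2 ≠ 0
    positivity
  have e : ∀ x, x ≠ c.b → (Nw (c.h x) 0)⁻¹ • Nw (c.h x) = nn c x := fun x hx => by
    rw [nn, NN_ne c hx]
  refine continuous_iff_continuousAt.2 fun x => ?_
  by_cases hx : x = c.b
  · rw [hx, continuousAt_iff_punctured_nhds]
    have e0 : nn c c.b = Nb := by
      rw [nn, NN_b]
      simp [Nb]
    rw [e0]
    refine (lim_Nw.comp c.h_inf).congr' ?_
    filter_upwards [self_mem_nhdsWithin] with y hy
    exact e y hy
  · have hm : ({c.b}ᶜ : Set Z) ∈ 𝓝 x := isOpen_compl_singleton.mem_nhds hx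
    refine (c1.continuousAt.comp (c.h_cont.continuousAt hm)).congr ?_
    filter_upwards [hm] with y hy
    exact e y hy

theorem tri_nn (c : GCh Z) (y : H3) : ∃ (x1 x2 x3 : Z) (a1 a2 a3 : ℝ), 0 < a1 ∧ 0 < a2 ∧ 0 < a3 ∧
    y.1 = (1 / 2 : ℝ) • (a1 • nn c x1 + a2 • nn c x2) ∧
    a1 * a2 * mink (nn c x1) (nn c x2) = -2 ∧
    a1 * a3 * mink (nn c x1) (nn c x3) = -1 ∧ a2 * a3 * mink (nn c x2) (nn c x3) = -1 := by
  obtain ⟨y, hy, h0⟩ := y
  simp only [mink] at hy
  have hs : 0 < y 0 - y 3 := by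
    have h1 : |y 3| < y 0 :=
      abs_lt_of_sq_lt_sq (by nlinarith [sq_nonneg (y 1), sq_nonneg (y 2)]) h0.le
    linarith [(abs_lt.1 h1).2]
  obtain ⟨t, ht, hts⟩ : ∃ t : ℝ, 0 < t ∧ t * (y 0 - y 3) = 1 :=
    ⟨(y 0 - y 3)⁻¹, inv_pos.2 hs, inv_mul_cancel₀ hs.ne'⟩
  let z : ℂ := ⟨t * y 1, t * y 2⟩
  have hz : ‖z‖ ^ 2 = t * (y 0 + y 3) - t ^ 2 := by
    rw [Complex.sq_norm, Complex.normSq_apply]
    show t * y 1 * (t * y 1) + t * y 2 * (t * y 2) = _
    linear_combination t ^ 2 * hy + t * (y 0 + y 3) * hts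
  have f : ∀ (a : ℝ) (x : Z), (a * NN c x 0) • nn c x = a • NN c x := fun a x => by
    rw [mul_smul, smul_nn]
  refine ⟨c.b, c.k z, c.k (z + t), t * NN c c.b 0, t⁻¹ * NN c (c.k z) 0,
    (2 * t)⁻¹ * NN c (c.k (z + t)) 0, mul_pos ht (NN_pos _ _), mul_pos (inv_pos.2 ht) (NN_pos _ _),
    mul_pos (by positivity) (NN_pos _ _), ?_, ?_, ?_, ?_⟩
  · rw [f, f, NN_b, NN_k]
    have ht' := ht.ne'
    funext i
    fin_cases i
    · show y 0 = 1 / 2 * (t * 1 + t⁻¹ * (1 + ‖z‖ ^ 2))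
      rw [hz]
      field_simp
      linear_combination hts
    · show y 1 = 1 / 2 * (t * 0 + t⁻¹ * (2 * (t * y 1)))
      field_simp
      ring
    · show y 2 = 1 / 2 * (t * 0 + t⁻¹ * (2 * (t * y 2)))
      field_simp
      ring
    · show y 3 = 1 / 2 * (t * 1 + t⁻¹ * (‖z‖ ^ 2 - 1))
      rw [hz]
      field_simp
      linear_combination -hts
  · rw [← mink_smul, f, f, mink_smul, NN_b, NN_k, mink_bw]
    field_simp
  · rw [← mink_smul, f, f, mink_smul, NN_b, NN_k, mink_bw]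
    field_simp
  · rw [← mink_smul, f, f, mink_smul, NN_k, NN_k, mink_ww, sub_add_cancel_left, norm_neg,
      Complex.norm_real, Real.norm_eq_abs, sq_abs]
    field_simp

/-- The light cone model given by a global chart. -/
noncomputable def cone (c : GCh Z) : Cone Z where
  n := nn c
  n0 x := by
    show (NN c x 0)⁻¹ * NN c x 0 = 1
    exact inv_mul_cancel₀ (NN_pos c x).ne'
  null x := by rw [nn, mink_smul, NN_null, mul_zero]
  neg x y h := by
    rw [nn, nn, mink_smul]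
    exact mul_neg_of_pos_of_neg (mul_pos (inv_pos.2 (NN_pos c x)) (inv_pos.2 (NN_pos c y)))
      (NN_neg c h)
  cont := cont_nn c
  ext L L' h := by
    have h1 : ∀ x, L (NN c x) = L' (NN c x) := fun x => by
      rw [← smul_nn, map_smul, map_smul, h]
    refine LinearMap.ext fun y => ?_
    rw [← span_NN c y, map_sum, map_sum]
    simp only [map_smul, h1]
  tri := tri_nn c

theorem Mob.rep {c : GCh Z} {g : G} (h : Mob c g) : ∃ L, (cone c).Rep (fun x => g • x) L := by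
  obtain ⟨μ, hμ, h⟩ := h
  obtain ⟨L, h1, h2⟩ := ext_lor (NN c) _ co (span_NN c) (fun x => μ x • NN c (g • x))
    fun x y => by rw [mink_smul, h]
  refine ⟨L, h1, fun x => ⟨(NN c x 0)⁻¹ * μ x * NN c (g • x) 0,
    mul_pos (mul_pos (inv_pos.2 (NN_pos c x)) (hμ x)) (NN_pos _ _), ?_⟩⟩
  show L (nn c x) = _ • nn c (g • x)
  rw [mul_smul, smul_nn, nn, map_smul, h2, smul_smul]

end C2

variable {G Z : Type*} [Group G] [MetricSpace Z] [MulAction G Z]

theorem partIIc2 [CompactSpace Z] (D : Dyn G Z) : PartIIc2 G Z := by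
  intro c hc
  refine C2.geom_of_cone D (C2.cone c) fun g => C2.Mob.rep ?_
  rcases hc g with h | h
  · exact C2.mob c g (D.cont_smul g) (LinearIsometryEquiv.refl ℝ ℂ) h
  · exact C2.mob c g (D.cont_smul g) Complex.conjLIE h

end Vale.Agent.P198
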