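import Vale.Agent.P198.Parts

/-! Part II-c2: Minkowski algebra and the abstract light cone model of the boundary. -/

open Set Metric Topology Filter

namespace Vale.Agent.P198.C2

/-- Minkowski space. -/
abbrev V : Type := Fin 4 → ℝ

theorem mink_comm (x y : V) : mink x y = mink y x := by
  unfold mink
  ring

theorem mink_smul (a b : ℝ) (x y : V) : mink (a • x) (b • y) = a * b * mink x y := by
  simp only [mink, Pi.smul_apply, smul_eq_mul]
  ring

theorem mink_smul_right (b : ℝ) (x y : V) : mink x (b • y) = b * mink x y := by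
  simp only [mink, Pi.smul_apply, smul_eq_mul]
  ring

theorem mink_sub_left (x x' y : V) : mink (x - x') y = mink x y - mink x' y := by
  simp only [mink, Pi.sub_apply]
  ring

theorem mink_sum_right (x c : V) (u : Fin 4 → V) :
    mink x (∑ j, c j • u j) = ∑ j, c j * mink x (u j) := by
  simp only [mink, Fin.sum_univ_four, Pi.add_apply, Pi.smul_apply, smul_eq_mul]
  ring

theorem mink_nondeg {e : V} (h : ∀ y, mink e y = 0) : e = 0 := by
  have h1 := h ![-e 0, e 1, e 2, e 3]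
  simp only [mink, Matrix.cons_val_zero, Matrix.cons_val_one, Matrix.cons_val] at h1
  have h0 : e 0 = 0 := by nlinarith [sq_nonneg (e 0), sq_nonneg (e 1), sq_nonneg (e 2), sq_nonneg (e 3)]
  have h2 : e 1 = 0 := by nlinarith [sq_nonneg (e 0), sq_nonneg (e 1), sq_nonneg (e 2), sq_nonneg (e 3)]
  have h3 : e 2 = 0 := by nlinarith [sq_nonneg (e 0), sq_nonneg (e 1), sq_nonneg (e 2), sq_nonneg (e 3)]
  have h4 : e 3 = 0 := by nlinarith [sq_nonneg (e 0), sq_nonneg (e 1), sq_nonneg (e 2), sq_nonneg (e 3)]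
  funext i
  fin_cases i
  · exact h0
  · exact h2
  · exact h3
  · exact h4

theorem cont_mink : Continuous fun p : V × V => mink p.1 p.2 := by
  unfold mink
  fun_prop

/-- A map of a spanning family preserving the form extends to a Lorentz map. -/
theorem ext_lor {Z : Type*} (N : Z → V) (xs : Fin 4 → Z) (co : V →ₗ[ℝ] V)
    (hs : ∀ y, ∑ j, co y j • N (xs j) = y) (U : Z → V)
    (hU : ∀ x y, mink (U x) (U y) = mink (N x) (N y)) :
    ∃ L : V →ₗ[ℝ] V, (∀ y y', mink (L y) (L y') = mink y y') ∧ ∀ x, L (N x) = U x := by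
  let L : V →ₗ[ℝ] V := (Fintype.linearCombination ℝ fun j => U (xs j)) ∘ₗ co
  have hL : ∀ y, L y = ∑ j, co y j • U (xs j) := fun y => by
    simp only [L, LinearMap.comp_apply, Fintype.linearCombination_apply]
  have h1 : ∀ x y, mink (U x) (L y) = mink (N x) y := by
    intro x y
    rw [hL, mink_sum_right]
    simp only [hU]
    rw [← mink_sum_right, hs]
  have h2 : ∀ y y', mink (L y) (L y') = mink y y' := by
    intro y y'
    rw [hL y', mink_sum_right]
    simp only [mink_comm (L y), h1]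
    simp only [fun j => mink_comm (N (xs j)) y]
    rw [← mink_sum_right, hs]
  have h3 : Function.Injective L := by
    rw [injective_iff_map_eq_zero]
    intro y hy
    refine mink_nondeg fun y' => ?_
    rw [← h2, hy]
    simp [mink]
  have h4 : Function.Surjective L := LinearMap.injective_iff_surjective.1 h3
  refine ⟨L, h2, fun x => sub_eq_zero.1 (mink_nondeg fun y => ?_)⟩
  obtain ⟨y', rfl⟩ := h4 y
  rw [mink_sub_left, h2, h1, sub_self]

/-- Pairing of a unit timelike vector with a normalised null vector. -/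
theorem pair_bd {y n : V} (hy : mink y y = -1) (h0 : 0 < y 0) (hn0 : n 0 = 1)
    (hn : mink n n = 0) : 1 ≤ 2 * y 0 * -mink y n ∧ -mink y n ≤ 2 * y 0 := by
  simp only [mink, hn0] at hy hn ⊢
  set s := y 1 * n 1 + y 2 * n 2 + y 3 * n 3 with hs
  have h1 : s ^ 2 ≤ y 0 ^ 2 - 1 := by
    have h2 : s ^ 2 ≤ (y 1 ^ 2 + y 2 ^ 2 + y 3 ^ 2) * (n 1 ^ 2 + n 2 ^ 2 + n 3 ^ 2) := by
      rw [hs]
      nlinarith [sq_nonneg (y 1 * n 2 - y 2 * n 1), sq_nonneg (y 1 * n 3 - y 3 * n 1),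
        sq_nonneg (y 2 * n 3 - y 3 * n 2)]
    have h3 : n 1 ^ 2 + n 2 ^ 2 + n 3 ^ 2 = 1 := by nlinarith
    have h4 : y 1 ^ 2 + y 2 ^ 2 + y 3 ^ 2 = y 0 ^ 2 - 1 := by nlinarith
    rw [h3, h4, mul_one] at h2
    exact h2
  have h5 : |s| < y 0 := abs_lt_of_sq_lt_sq (by linarith) h0.le
  obtain ⟨h6, h7⟩ := abs_lt.1 h5
  have h8 : -(-(y 0 * 1) + y 1 * n 1 + y 2 * n 2 + y 3 * n 3) = y 0 - s := by
    rw [hs]
    ring
  rw [h8]
  constructor
  · nlinarith
  · linarith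

theorem null_bd {m n : V} (hm0 : m 0 = 1) (hm : mink m m = 0) (hn0 : n 0 = 1)
    (hn : mink n n = 0) : -mink m n ≤ 2 := by
  simp only [mink, hn0, hm0] at hm hn ⊢
  nlinarith [sq_nonneg (m 1 + n 1), sq_nonneg (m 2 + n 2), sq_nonneg (m 3 + n 3)]

theorem time_pos {y n : V} (hy : mink y y = -1) (hn0 : n 0 = 1) (hn : mink n n = 0)
    (h : mink y n < 0) : 0 < y 0 := by
  rcases lt_trichotomy (y 0) 0 with h0 | h0 | h0
  · have h1 : mink ((-1 : ℝ) • y) ((-1 : ℝ) • y) = -1 := by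
      rw [mink_smul, hy]
      norm_num
    have h2 : 0 < ((-1 : ℝ) • y) 0 := by
      simp only [Pi.smul_apply, smul_eq_mul]
      linarith
    have h3 := (pair_bd h1 h2 hn0 hn).1
    rw [mink_comm, mink_smul_right, mink_comm] at h3
    nlinarith
  · simp only [mink, h0] at hy
    nlinarith [sq_nonneg (y 1), sq_nonneg (y 2), sq_nonneg (y 3)]
  · exact h0

theorem cpt_H3 (R : ℝ) : IsCompact {y : H3 | y.1 0 ≤ R} := by
  rw [Topology.IsEmbedding.subtypeVal.isCompact_iff]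
  have h1 : (Subtype.val '' {y : H3 | y.1 0 ≤ R}) =
      {x : V | mink x x = -1} ∩ ({x : V | 0 ≤ x 0} ∩ {x : V | x 0 ≤ R}) := by
    ext x
    constructor
    · rintro ⟨y, hy, rfl⟩
      exact ⟨y.2.1, y.2.2.le, hy⟩
    · rintro ⟨h1, h2, h3⟩
      refine ⟨⟨x, h1, lt_of_le_of_ne h2 fun h0 => ?_⟩, h3, rfl⟩
      have h4 : mink x x = -1 := h1
      simp only [mink, ← h0] at h4
      nlinarith [sq_nonneg (x 1), sq_nonneg (x 2), sq_nonneg (x 3)]
  rw [h1]
  refine (isCompact_closedBall (0 : V) R).of_isClosed_subset ?_ ?_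
  · refine (isClosed_eq (cont_mink.comp (continuous_id.prodMk continuous_id)) continuous_const).inter
      ((isClosed_le continuous_const (continuous_apply 0)).inter
        (isClosed_le (continuous_apply 0) continuous_const))
  · rintro x ⟨h1, h2, h3⟩
    have h4 : mink x x = -1 := h1
    have h5 : 0 ≤ x 0 := h2
    have h6 : x 0 ≤ R := h3
    rw [mem_closedBall_zero_iff, pi_norm_le_iff_of_nonneg (h5.trans h6)]
    simp only [mink] at h4
    have h7 : ∀ i, x i ^ 2 ≤ x 0 ^ 2 := by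
      intro i
      fin_cases i
      · exact le_rfl
      · show x 1 ^ 2 ≤ x 0 ^ 2
        nlinarith [sq_nonneg (x 1), sq_nonneg (x 2), sq_nonneg (x 3)]
      · show x 2 ^ 2 ≤ x 0 ^ 2
        nlinarith [sq_nonneg (x 1), sq_nonneg (x 2), sq_nonneg (x 3)]
      · show x 3 ^ 2 ≤ x 0 ^ 2
        nlinarith [sq_nonneg (x 1), sq_nonneg (x 2), sq_nonneg (x 3)]
    intro i
    exact (abs_le_of_sq_le_sq (h7 i) h5).trans h6

/-- The boundary embedded in the projectivised light cone. -/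
structure Cone (Z : Type*) [MetricSpace Z] where
  n : Z → V
  n0 : ∀ x, n x 0 = 1
  null : ∀ x, mink (n x) (n x) = 0
  neg : ∀ x y, x ≠ y → mink (n x) (n y) < 0
  cont : Continuous n
  ext : ∀ L L' : V →ₗ[ℝ] V, (∀ x, L (n x) = L' (n x)) → L = L'
  tri : ∀ y : H3, ∃ (x1 x2 x3 : Z) (a1 a2 a3 : ℝ), 0 < a1 ∧ 0 < a2 ∧ 0 < a3 ∧
    y.1 = (1 / 2 : ℝ) • (a1 • n x1 + a2 • n x2) ∧ a1 * a2 * mink (n x1) (n x2) = -2 ∧
    a1 * a3 * mink (n x1) (n x3) = -1 ∧ a2 * a3 * mink (n x2) (n x3) = -1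

variable {Z : Type*} [MetricSpace Z]

/-- The Lorentz map `L` induces `f` on the boundary. -/
def Cone.Rep (Γ : Cone Z) (f : Z → Z) (L : V →ₗ[ℝ] V) : Prop :=
  (∀ y y', mink (L y) (L y') = mink y y') ∧ ∀ x, ∃ a : ℝ, 0 < a ∧ L (Γ.n x) = a • Γ.n (f x)

/-- The base point of hyperbolic space. -/
def e0 : H3 := ⟨![1, 0, 0, 0], by simp [mink], by simp⟩

theorem Cone.three (Γ : Cone Z) : ∃ x1 x2 x3 : Z, x1 ≠ x2 ∧ x1 ≠ x3 ∧ x2 ≠ x3 := by
  obtain ⟨x1, x2, x3, a1, a2, a3, -, -, -, -, h1, h2, h3⟩ := Γ.tri e0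
  refine ⟨x1, x2, x3, ?_, ?_, ?_⟩
  · rintro rfl
    rw [Γ.null] at h1
    norm_num at h1
  · rintro rfl
    rw [Γ.null] at h2
    norm_num at h2
  · rintro rfl
    rw [Γ.null] at h3
    norm_num at h3

theorem Cone.Rep.uniq {Γ : Cone Z} {f : Z → Z} {L L' : V →ₗ[ℝ] V} (h : Γ.Rep f L)
    (h' : Γ.Rep f L') : L = L' := by
  choose a ha hL using h.2
  choose a' ha' hL' using h'.2
  have h1 : ∀ x y, x ≠ y → a x * a y = a' x * a' y := by
    intro x y hxy
    have e1 := h.1 (Γ.n x) (Γ.n y)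
    have e2 := h'.1 (Γ.n x) (Γ.n y)
    rw [hL, hL, mink_smul] at e1
    rw [hL', hL', mink_smul] at e2
    have e3 := Γ.neg x y hxy
    have e4 : mink (Γ.n (f x)) (Γ.n (f y)) ≠ 0 := by
      intro h0
      rw [h0, mul_zero] at e1
      exact e3.ne' e1
    exact mul_right_cancel₀ e4 (e1.trans e2.symm)
  have h2 : ∀ x y z, x ≠ y → x ≠ z → y ≠ z → a x = a' x := by
    intro x y z hxy hxz hyz
    have e1 := h1 x y hxy
    have e2 := h1 x z hxz
    have e3 := h1 y z hyz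
    have e4 : a x ^ 2 * (a y * a z) = a' x ^ 2 * (a y * a z) := by
      calc a x ^ 2 * (a y * a z) = (a x * a y) * (a x * a z) := by ring
        _ = a' x ^ 2 * (a' y * a' z) := by rw [e1, e2]; ring
        _ = _ := by rw [e3]
    have e5 := mul_right_cancel₀ (mul_pos (ha y) (ha z)).ne' e4
    exact (pow_left_inj₀ (ha x).le (ha' x).le two_ne_zero).1 e5
  obtain ⟨x1, x2, x3, h12, h13, h23⟩ := Γ.three
  have h3 : ∀ x y, x ≠ y → a y = a' y → a x = a' x := by
    intro x y hxy hy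
    have e1 := h1 x y hxy
    rw [← hy] at e1
    exact mul_right_cancel₀ (ha y).ne' e1
  refine Γ.ext L L' fun x => ?_
  rw [hL, hL']
  by_cases hx : x = x1
  · rw [hx, h2 x1 x2 x3 h12 h13 h23]
  · rw [h3 x x1 hx (h2 x1 x2 x3 h12 h13 h23)]

theorem Cone.Rep.comp {Γ : Cone Z} {f f' : Z → Z} {L L' : V →ₗ[ℝ] V} (h : Γ.Rep f L)
    (h' : Γ.Rep f' L') : Γ.Rep (fun x => f (f' x)) (L ∘ₗ L') := by
  refine ⟨fun y y' => by rw [LinearMap.comp_apply, LinearMap.comp_apply, h.1, h'.1], fun x => ?_⟩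
  obtain ⟨a', ha', e'⟩ := h'.2 x
  obtain ⟨a, ha, e⟩ := h.2 (f' x)
  refine ⟨a' * a, mul_pos ha' ha, ?_⟩
  rw [LinearMap.comp_apply, e', map_smul, e, smul_smul]

theorem Cone.rep_id (Γ : Cone Z) : Γ.Rep (fun x => x) LinearMap.id :=
  ⟨fun _ _ => rfl, fun _ => ⟨1, one_pos, (one_smul _ _).symm⟩⟩

theorem Cone.Rep.mem {Γ : Cone Z} {f : Z → Z} {L : V →ₗ[ℝ] V} (h : Γ.Rep f L) (y : H3) :
    mink (L y.1) (L y.1) = -1 ∧ 0 < L y.1 0 := by
  have h1 : mink (L y.1) (L y.1) = -1 := (h.1 _ _).trans y.2.1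
  obtain ⟨x, -⟩ := Γ.three
  obtain ⟨a, ha, e⟩ := h.2 x
  refine ⟨h1, time_pos h1 (Γ.n0 (f x)) (Γ.null _) ?_⟩
  have h2 := h.1 y.1 (Γ.n x)
  rw [e, mink_smul_right] at h2
  have h3 := (pair_bd y.2.1 y.2.2 (Γ.n0 x) (Γ.null x)).1
  have h4 := y.2.2
  have h5 : mink y.1 (Γ.n x) < 0 := by
    by_contra hc
    nlinarith [not_lt.1 hc]
  by_contra hc
  nlinarith [not_lt.1 hc]

end Vale.Agent.P198.C2
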